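import Mathlib

/-!
# Integral versus fractional expectation thresholds: an iterated-logarithm bound.

For every family `F` of subsets of a finite set `X` with `|X| ≤ tower k` (a tower of `k` twos),
`q_f(F) ≤ 2 (k+1) (k+5) q(F)`. So `q_f ≤ O((log* |X|)^2) q`.

Proof idea. Let `g` be a fractional cover with cost at most `1/2` at `p`, and let
`V_b(U) = ∑ g(M) b^|M \ U|`. If a finite family `A` consists of sets with `V_b ≥ 1` and
`Z = ∑_{S ∈ A} γ^|S| > 1`, then an inclusion maximal `C` with `∑_{S ∈ A, S ⊇ C} γ^|S| ≥ Z γ^|C|`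
satisfies `V_{b+γ}(C) ≥ 1` (first moment over the sets above `C`, which are `γ`-spread).
Replacing all sets above `C` by `C` and repeating produces a family of cost at most `1 + log Z`
at the level `b + γ`, leaving a remainder of cost at most `1`.  Iterate `k+1` times with
`γ = p/(k+1)`.
-/

open Finset BigOperators

namespace Vale.Agent.Results.P034.A_logstar

set_option linter.unusedSectionVars false

variable {X : Type*} [Fintype X] [DecidableEq X]

/-- The cost `∑_{S ∈ G} p^|S|` of a family `G` at `p`. -/
noncomputable def famCost (G : Finset (Finset X)) (p : ℝ) : ℝ := ∑ S ∈ G, p ^ S.card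

/-- `G` covers `F`: every member of `F` contains a member of `G`. -/
def IsCoverOf (G : Finset (Finset X)) (F : Set (Finset X)) : Prop :=
  ∀ H ∈ F, ∃ S ∈ G, S ⊆ H

/-- `F` is `p`-small: some cover has cost at most `1/2` at `p`. -/
def IsSmall (F : Set (Finset X)) (p : ℝ) : Prop :=
  ∃ G : Finset (Finset X), IsCoverOf G F ∧ famCost G p ≤ 1 / 2

/-- `g : 2^X → [0,1]` is a fractional cover of `F`: `∑_{S ⊆ H} g S ≥ 1` for every `H ∈ F`. -/
def IsFracCover (g : Finset X → ℝ) (F : Set (Finset X)) : Prop :=
  (∀ S, 0 ≤ g S ∧ g S ≤ 1) ∧ ∀ H ∈ F, 1 ≤ ∑ S ∈ H.powerset, g S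

/-- The cost `∑_S g(S) p^|S|` of a fractional cover at `p`. -/
noncomputable def fracCost (g : Finset X → ℝ) (p : ℝ) : ℝ := ∑ S : Finset X, g S * p ^ S.card

/-- Some fractional cover of `F` has cost at most `1/2` at `p`. -/
def IsFracSmall (F : Set (Finset X)) (p : ℝ) : Prop :=
  ∃ g : Finset X → ℝ, IsFracCover g F ∧ fracCost g p ≤ 1 / 2

/-- The integral expectation threshold `q(F) = max {p ∈ [0,1] : F is p-small}`. -/
noncomputable def qInt (F : Set (Finset X)) : ℝ :=
  sSup {p : ℝ | p ∈ Set.Icc (0 : ℝ) 1 ∧ IsSmall F p}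

/-- The fractional expectation threshold `q_f(F)`. -/
noncomputable def qFrac (F : Set (Finset X)) : ℝ :=
  sSup {p : ℝ | p ∈ Set.Icc (0 : ℝ) 1 ∧ IsFracSmall F p}

/-- The tower of twos: `tower 0 = 1`, `tower (k+1) = 2 ^ tower k`. -/
def tower : ℕ → ℕ
  | 0 => 1
  | n + 1 => 2 ^ tower n

/-! ### The value function and the first moment lemma -/

/-- `V_b(U) = ∑_M g(M) b^|M \ U|`. -/
noncomputable def val (g : Finset X → ℝ) (b : ℝ) (U : Finset X) : ℝ :=
  ∑ M : Finset X, g M * b ^ (M \ U).card

/-- `∑_{S ∈ A, S ⊇ C} γ^|S|`. -/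
noncomputable def linkCost (A : Finset (Finset X)) (γ : ℝ) (C : Finset X) : ℝ :=
  ∑ S ∈ A.filter (fun S => C ⊆ S), γ ^ S.card

lemma pow_sdiff_le (b : ℝ) (hb : 0 ≤ b) (M S : Finset X) :
    b ^ (M \ S).card ≤ ∑ J ∈ M.powerset, if J ⊆ S then b ^ (M.card - J.card) else 0 := by
  have hmem : M ∩ S ∈ M.powerset := Finset.mem_powerset.mpr Finset.inter_subset_left
  have hcard : (M \ S).card = M.card - (M ∩ S).card := by
    have h := Finset.card_sdiff_add_card_inter M S
    omega
  have hterm : (if (M ∩ S) ⊆ S then b ^ (M.card - (M ∩ S).card) else 0) = b ^ (M \ S).card := by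
    rw [if_pos Finset.inter_subset_right, hcard]
  calc b ^ (M \ S).card
      = (if (M ∩ S) ⊆ S then b ^ (M.card - (M ∩ S).card) else 0) := hterm.symm
    _ ≤ ∑ J ∈ M.powerset, if J ⊆ S then b ^ (M.card - J.card) else 0 := by
        apply Finset.single_le_sum (f := fun J => if J ⊆ S then b ^ (M.card - J.card) else 0) _ hmem
        intro J _
        split_ifs
        · exact pow_nonneg hb _
        · exact le_refl _

lemma linkCost_union (A : Finset (Finset X)) (γ : ℝ) (C J : Finset X) :
    linkCost A γ (C ∪ J) = ∑ S ∈ A.filter (fun S => C ⊆ S), if J ⊆ S then γ ^ S.card else 0 := by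
  unfold linkCost
  rw [Finset.sum_filter (s := A.filter (fun S => C ⊆ S)) (p := fun S => J ⊆ S)
    (f := fun S => γ ^ S.card) |>.symm, Finset.filter_filter]
  apply Finset.sum_congr _ (fun _ _ => rfl)
  ext S
  simp [Finset.union_subset_iff]

/-- The first moment step: above a spread kernel `C`, the value at `b + γ` is at least `1`. -/
lemma kernel_val {g : Finset X → ℝ} (hg : ∀ S, 0 ≤ g S) {b γ : ℝ} (hb : 0 ≤ b) (hγ : 0 < γ)
    {A : Finset (Finset X)} (hA : ∀ S ∈ A, 1 ≤ val g b S) {C : Finset X}
    (hL : 0 < linkCost A γ C)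
    (hspread : ∀ J : Finset X, Disjoint J C →
      linkCost A γ (C ∪ J) ≤ linkCost A γ C * γ ^ J.card) :
    1 ≤ val g (b + γ) C := by
  -- the contribution of one monomial
  have hM : ∀ M : Finset X,
      ∑ S ∈ A.filter (fun S => C ⊆ S), γ ^ S.card * b ^ (M \ S).card
        ≤ linkCost A γ C * (b + γ) ^ (M \ C).card := by
    intro M
    set M' := M \ C with hM'
    have h1 : ∀ S ∈ A.filter (fun S => C ⊆ S),
        γ ^ S.card * b ^ (M \ S).card
          ≤ ∑ J ∈ M'.powerset,
              (if J ⊆ S then γ ^ S.card else 0) * b ^ (M'.card - J.card) := by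
      intro S hS
      have hCS : C ⊆ S := (Finset.mem_filter.mp hS).2
      have hsd : M \ S = M' \ S := by
        ext x
        simp only [hM', Finset.mem_sdiff]
        constructor
        · rintro ⟨h1, h2⟩
          exact ⟨⟨h1, fun h => h2 (hCS h)⟩, h2⟩
        · rintro ⟨⟨h1, _⟩, h3⟩
          exact ⟨h1, h3⟩
      rw [hsd]
      calc γ ^ S.card * b ^ (M' \ S).card
          ≤ γ ^ S.card * ∑ J ∈ M'.powerset,
              (if J ⊆ S then b ^ (M'.card - J.card) else 0) :=
            mul_le_mul_of_nonneg_left (pow_sdiff_le b hb M' S) (pow_nonneg hγ.le _)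
        _ = ∑ J ∈ M'.powerset,
              (if J ⊆ S then γ ^ S.card else 0) * b ^ (M'.card - J.card) := by
            rw [Finset.mul_sum]
            apply Finset.sum_congr rfl
            intro J _
            split_ifs <;> simp
    calc ∑ S ∈ A.filter (fun S => C ⊆ S), γ ^ S.card * b ^ (M \ S).card
        ≤ ∑ S ∈ A.filter (fun S => C ⊆ S), ∑ J ∈ M'.powerset,
              (if J ⊆ S then γ ^ S.card else 0) * b ^ (M'.card - J.card) :=
          Finset.sum_le_sum h1
      _ = ∑ J ∈ M'.powerset, ∑ S ∈ A.filter (fun S => C ⊆ S),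
              (if J ⊆ S then γ ^ S.card else 0) * b ^ (M'.card - J.card) :=
          Finset.sum_comm
      _ = ∑ J ∈ M'.powerset, linkCost A γ (C ∪ J) * b ^ (M'.card - J.card) := by
          apply Finset.sum_congr rfl
          intro J _
          rw [linkCost_union, Finset.sum_mul]
      _ ≤ ∑ J ∈ M'.powerset, (linkCost A γ C * γ ^ J.card) * b ^ (M'.card - J.card) := by
          apply Finset.sum_le_sum
          intro J hJ
          have hJM : J ⊆ M' := Finset.mem_powerset.mp hJ
          have hdisj : Disjoint J C := by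
            rw [Finset.disjoint_left]
            intro x hx hxC
            have := hJM hx
            rw [hM', Finset.mem_sdiff] at this
            exact this.2 hxC
          exact mul_le_mul_of_nonneg_right (hspread J hdisj) (pow_nonneg hb _)
      _ = linkCost A γ C * ∑ J ∈ M'.powerset, γ ^ J.card * b ^ (M'.card - J.card) := by
          rw [Finset.mul_sum]
          apply Finset.sum_congr rfl
          intro J _
          ring
      _ = linkCost A γ C * (b + γ) ^ M'.card := by
          rw [Finset.sum_pow_mul_eq_add_pow, add_comm]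
  -- sum over the monomials
  have hmain : linkCost A γ C ≤ linkCost A γ C * val g (b + γ) C := by
    calc linkCost A γ C
        = ∑ S ∈ A.filter (fun S => C ⊆ S), γ ^ S.card * 1 := by
          unfold linkCost; simp
      _ ≤ ∑ S ∈ A.filter (fun S => C ⊆ S), γ ^ S.card * val g b S := by
          apply Finset.sum_le_sum
          intro S hS
          exact mul_le_mul_of_nonneg_left (hA S (Finset.mem_filter.mp hS).1) (pow_nonneg hγ.le _)
      _ = ∑ M : Finset X, g M *
            ∑ S ∈ A.filter (fun S => C ⊆ S), γ ^ S.card * b ^ (M \ S).card := by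
          unfold val
          simp only [Finset.mul_sum]
          rw [Finset.sum_comm]
          apply Finset.sum_congr rfl
          intro M _
          apply Finset.sum_congr rfl
          intro S _
          ring
      _ ≤ ∑ M : Finset X, g M * (linkCost A γ C * (b + γ) ^ (M \ C).card) := by
          apply Finset.sum_le_sum
          intro M _
          exact mul_le_mul_of_nonneg_left (hM M) (hg M)
      _ = linkCost A γ C * val g (b + γ) C := by
          unfold val
          rw [Finset.mul_sum]
          apply Finset.sum_congr rfl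
          intro M _
          ring
  have := (le_div_iff₀ hL).mpr (by linarith : 1 * linkCost A γ C ≤ linkCost A γ C * val g (b + γ) C)
  have h2 : linkCost A γ C * val g (b + γ) C / linkCost A γ C = val g (b + γ) C := by
    field_simp
  linarith

/-! ### One generation: peeling -/

lemma famCost_nonneg (G : Finset (Finset X)) {γ : ℝ} (hγ : 0 ≤ γ) : 0 ≤ famCost G γ :=
  Finset.sum_nonneg (fun _ _ => pow_nonneg hγ _)

lemma famCost_insert_le (G : Finset (Finset X)) {γ : ℝ} (hγ : 0 ≤ γ) (C : Finset X) :
    famCost (insert C G) γ ≤ famCost G γ + γ ^ C.card := by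
  unfold famCost
  by_cases h : C ∈ G
  · rw [Finset.insert_eq_of_mem h]
    linarith [pow_nonneg hγ C.card]
  · rw [Finset.sum_insert h]
    linarith

lemma famCost_union_le (G G' : Finset (Finset X)) {γ : ℝ} (hγ : 0 ≤ γ) :
    famCost (G ∪ G') γ ≤ famCost G γ + famCost G' γ := by
  unfold famCost
  have h := Finset.sum_union_inter (s₁ := G) (s₂ := G') (f := fun S => γ ^ S.card)
  have h2 : 0 ≤ ∑ S ∈ G ∩ G', γ ^ S.card := Finset.sum_nonneg (fun _ _ => pow_nonneg hγ _)
  linarith

/-- The bound after one generation. -/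
noncomputable def logStep (z : ℝ) : ℝ := 1 + Real.log (max z 1)

lemma logStep_mono : Monotone logStep := by
  intro x y hxy
  unfold logStep
  have h1 : (0 : ℝ) < max x 1 := lt_of_lt_of_le one_pos (le_max_right _ _)
  have h2 : max x 1 ≤ max y 1 := max_le_max hxy le_rfl
  linarith [Real.log_le_log h1 h2]

/-- One generation of peeling. -/
lemma peel {g : Finset X → ℝ} (hg : ∀ S, 0 ≤ g S) {b γ : ℝ} (hb : 0 ≤ b) (hγ : 0 < γ) :
    ∀ (n : ℕ) (A : Finset (Finset X)), A.card = n → (∀ S ∈ A, 1 ≤ val g b S) →
      ∃ Q A' : Finset (Finset X),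
        (∀ S ∈ Q, S ∈ A) ∧ famCost Q γ ≤ 1 ∧ (∀ C ∈ A', 1 ≤ val g (b + γ) C) ∧
        (∀ S ∈ A, S ∈ Q ∨ ∃ C ∈ A', C ⊆ S) ∧
        famCost A' γ ≤ (if famCost A γ ≤ 1 then 0 else 1 + Real.log (famCost A γ)) := by
  intro n
  induction n using Nat.strong_induction_on with
  | _ n ih =>
    intro A hn hA
    by_cases hZ : famCost A γ ≤ 1
    · refine ⟨A, ∅, fun S hS => hS, hZ, by simp, fun S hS => Or.inl hS, ?_⟩
      rw [if_pos hZ]
      simp [famCost]
    · push Not at hZ
      set Z := famCost A γ with hZdef
      have hZpos : 0 < Z := by linarith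
      -- the candidates
      let P : Finset (Finset X) :=
        Finset.univ.filter (fun C => Z * γ ^ C.card ≤ linkCost A γ C)
      have hempty : (∅ : Finset X) ∈ P := by
        simp only [P, Finset.mem_filter, Finset.mem_univ, true_and, Finset.card_empty, pow_zero,
          mul_one]
        unfold linkCost
        simp [hZdef, famCost]
      obtain ⟨C, hCP, hCmax⟩ := Finset.exists_max_image P (fun C => C.card) ⟨∅, hempty⟩
      have hCL : Z * γ ^ C.card ≤ linkCost A γ C :=
        (Finset.mem_filter.mp hCP).2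
      have hgpos : 0 < γ ^ C.card := pow_pos hγ _
      have hLpos : 0 < linkCost A γ C := lt_of_lt_of_le (mul_pos hZpos hgpos) hCL
      have hspread : ∀ J : Finset X, Disjoint J C →
          linkCost A γ (C ∪ J) ≤ linkCost A γ C * γ ^ J.card := by
        intro J hJ
        by_cases hJe : J = ∅
        · subst hJe
          simp
        · have hcard : (C ∪ J).card = C.card + J.card := by
            rw [Finset.card_union_of_disjoint hJ.symm]
          have hJpos : 0 < J.card := Finset.card_pos.mpr (Finset.nonempty_iff_ne_empty.mpr hJe)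
          have hnot : C ∪ J ∉ P := by
            intro hmem
            have := hCmax _ hmem
            omega
          have hlt : linkCost A γ (C ∪ J) < Z * γ ^ (C ∪ J).card := by
            by_contra hcon
            push Not at hcon
            exact hnot (Finset.mem_filter.mpr ⟨Finset.mem_univ _, hcon⟩)
          calc linkCost A γ (C ∪ J) ≤ Z * γ ^ (C ∪ J).card := hlt.le
            _ = Z * γ ^ C.card * γ ^ J.card := by rw [hcard, pow_add]; ring
            _ ≤ linkCost A γ C * γ ^ J.card :=
                mul_le_mul_of_nonneg_right hCL (pow_nonneg hγ.le _)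
      have hCval : 1 ≤ val g (b + γ) C := kernel_val hg hb hγ hA hLpos hspread
      -- remove everything above C
      let A1 := A.filter (fun S => ¬ C ⊆ S)
      have hsplit : Z = linkCost A γ C + famCost A1 γ := by
        unfold linkCost famCost
        rw [hZdef]
        unfold famCost
        rw [Finset.sum_filter_add_sum_filter_not]
      have hexists : ∃ S ∈ A, C ⊆ S := by
        by_contra hcon
        push Not at hcon
        have : A.filter (fun S => C ⊆ S) = ∅ := by
          apply Finset.filter_eq_empty_iff.mpr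
          intro S hS
          exact hcon S hS
        unfold linkCost at hLpos
        rw [this] at hLpos
        simp at hLpos
      have hcardlt : A1.card < n := by
        rw [← hn]
        apply Finset.card_lt_card
        refine ⟨Finset.filter_subset _ _, ?_⟩
        intro hsub
        obtain ⟨S, hS, hCS⟩ := hexists
        have := hsub hS
        exact (Finset.mem_filter.mp this).2 hCS
      obtain ⟨Q, A', hQ, hQc, hA', hcov, hcost⟩ :=
        ih A1.card hcardlt A1 rfl (fun S hS => hA S (Finset.mem_filter.mp hS).1)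
      refine ⟨Q, insert C A', ?_, hQc, ?_, ?_, ?_⟩
      · intro S hS
        exact (Finset.mem_filter.mp (hQ S hS)).1
      · intro D hD
        rcases Finset.mem_insert.mp hD with rfl | hD
        · exact hCval
        · exact hA' D hD
      · intro S hS
        by_cases hCS : C ⊆ S
        · exact Or.inr ⟨C, Finset.mem_insert_self _ _, hCS⟩
        · rcases hcov S (Finset.mem_filter.mpr ⟨hS, hCS⟩) with h | ⟨D, hD, hDS⟩
          · exact Or.inl h
          · exact Or.inr ⟨D, Finset.mem_insert_of_mem hD, hDS⟩
      · rw [if_neg (not_le.mpr hZ)]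
        set Z1 := famCost A1 γ with hZ1
        have hZ1nn : 0 ≤ Z1 := famCost_nonneg _ hγ.le
        have hgC : γ ^ C.card ≤ (Z - Z1) / Z := by
          rw [le_div_iff₀ hZpos]
          have : Z - Z1 = linkCost A γ C := by linarith
          rw [this]
          linarith
        have hlogZ : 0 < Real.log Z := Real.log_pos hZ
        calc famCost (insert C A') γ ≤ famCost A' γ + γ ^ C.card := famCost_insert_le _ hγ.le _
          _ ≤ (if Z1 ≤ 1 then 0 else 1 + Real.log Z1) + (Z - Z1) / Z := add_le_add hcost hgC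
          _ ≤ 1 + Real.log Z := by
              by_cases hZ1le : Z1 ≤ 1
              · rw [if_pos hZ1le]
                have : (Z - Z1) / Z ≤ 1 := by
                  rw [div_le_one hZpos]
                  linarith
                linarith
              · rw [if_neg hZ1le]
                push Not at hZ1le
                have hZ1pos : 0 < Z1 := by linarith
                have hx : 0 < Z / Z1 := div_pos hZpos hZ1pos
                have hlog := Real.one_sub_inv_le_log_of_pos hx
                rw [Real.log_div hZpos.ne' hZ1pos.ne', inv_div] at hlog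
                have heq : (Z - Z1) / Z = 1 - Z1 / Z := by
                  field_simp
                rw [heq]
                linarith

/-- Iterating the generations. -/
lemma gens {g : Finset X → ℝ} (hg : ∀ S, 0 ≤ g S) {γ : ℝ} (hγ : 0 < γ) :
    ∀ (m : ℕ) (b : ℝ) (A : Finset (Finset X)), 0 ≤ b → (∀ S ∈ A, 1 ≤ val g b S) →
      ∃ G : Finset (Finset X),
        (∀ S ∈ A, ∃ T ∈ G, T ⊆ S) ∧
        (∀ T ∈ G, ∃ b', 0 ≤ b' ∧ b' ≤ b + m * γ ∧ 1 ≤ val g b' T) ∧
        famCost G γ ≤ m + logStep^[m] (famCost A γ) := by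
  intro m
  induction m with
  | zero =>
    intro b A hb hA
    refine ⟨A, fun S hS => ⟨S, hS, Finset.Subset.refl _⟩, ?_, ?_⟩
    · intro T hT
      exact ⟨b, hb, by simp, hA T hT⟩
    · simp
  | succ m ih =>
    intro b A hb hA
    obtain ⟨Q, A', hQ, hQc, hA', hcov, hcost⟩ := peel hg hb hγ A.card A rfl hA
    obtain ⟨G', hG'cov, hG'val, hG'cost⟩ := ih (b + γ) A' (by linarith) hA'
    refine ⟨Q ∪ G', ?_, ?_, ?_⟩
    · intro S hS
      rcases hcov S hS with h | ⟨C, hC, hCS⟩
      · exact ⟨S, Finset.mem_union_left _ h, Finset.Subset.refl _⟩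
      · obtain ⟨T, hT, hTC⟩ := hG'cov C hC
        exact ⟨T, Finset.mem_union_right _ hT, hTC.trans hCS⟩
    · intro T hT
      rcases Finset.mem_union.mp hT with h | h
      · refine ⟨b, hb, ?_, hA T (hQ T h)⟩
        have : (0 : ℝ) ≤ ((m + 1 : ℕ) : ℝ) * γ := by positivity
        linarith
      · obtain ⟨b', hb'0, hb', hval⟩ := hG'val T h
        refine ⟨b', hb'0, ?_, hval⟩
        push_cast
        linarith
    · have hstep : famCost A' γ ≤ logStep (famCost A γ) := by
        refine hcost.trans ?_
        unfold logStep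
        by_cases hZ : famCost A γ ≤ 1
        · rw [if_pos hZ, max_eq_right hZ, Real.log_one]
          norm_num
        · rw [if_neg hZ, max_eq_left (not_le.mp hZ).le]
      have hmono : logStep^[m] (famCost A' γ) ≤ logStep^[m] (logStep (famCost A γ)) :=
        logStep_mono.iterate m hstep
      calc famCost (Q ∪ G') γ ≤ famCost Q γ + famCost G' γ := famCost_union_le _ _ hγ.le
        _ ≤ 1 + (m + logStep^[m] (famCost A' γ)) := add_le_add hQc hG'cost
        _ ≤ ((m + 1 : ℕ) : ℝ) + logStep^[m + 1] (famCost A γ) := by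
            rw [Function.iterate_succ_apply]
            push_cast
            linarith

/-! ### The tower bound -/

lemma logStep_two_pow (t : ℕ) : logStep ((2 : ℝ) ^ t + 3) ≤ (t : ℝ) + 3 := by
  unfold logStep
  have h1 : (1 : ℝ) ≤ (2 : ℝ) ^ t := one_le_pow₀ (by norm_num)
  have hmax : max ((2 : ℝ) ^ t + 3) 1 = (2 : ℝ) ^ t + 3 := max_eq_left (by linarith)
  rw [hmax]
  have h2 : (2 : ℝ) ^ t + 3 ≤ (2 : ℝ) ^ (t + 2) := by
    rw [pow_add]
    nlinarith
  have h3 : Real.log ((2 : ℝ) ^ t + 3) ≤ Real.log ((2 : ℝ) ^ (t + 2)) :=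
    Real.log_le_log (by positivity) h2
  rw [Real.log_pow] at h3
  have hlog2 : Real.log 2 < 1 := by
    have := Real.log_two_lt_d9
    linarith
  have hlog2nn : 0 ≤ Real.log 2 := Real.log_nonneg (by norm_num)
  have h4 : ((t + 2 : ℕ) : ℝ) * Real.log 2 ≤ ((t + 2 : ℕ) : ℝ) * 1 :=
    mul_le_mul_of_nonneg_left hlog2.le (by positivity)
  push_cast at h3 h4
  linarith

lemma iterate_tower (k : ℕ) : logStep^[k] ((tower k : ℝ) + 3) ≤ 4 := by
  induction k with
  | zero =>
    simp [tower]
    norm_num
  | succ k ih =>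
    rw [Function.iterate_succ_apply]
    have h : logStep ((tower (k + 1) : ℝ) + 3) ≤ (tower k : ℝ) + 3 := by
      have := logStep_two_pow (tower k)
      simpa [tower] using this
    exact (logStep_mono.iterate k h).trans ih

/-! ### Assembling -/

lemma val_zero_ge {g : Finset X → ℝ} (hg : ∀ S, 0 ≤ g S) (H : Finset X) :
    ∑ S ∈ H.powerset, g S ≤ val g 0 H := by
  unfold val
  have hsub : H.powerset ⊆ (Finset.univ : Finset (Finset X)) := Finset.subset_univ _
  calc ∑ S ∈ H.powerset, g S
      = ∑ S ∈ H.powerset, g S * (0 : ℝ) ^ (S \ H).card := by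
        apply Finset.sum_congr rfl
        intro S hS
        have : S \ H = ∅ := Finset.sdiff_eq_empty_iff_subset.mpr (Finset.mem_powerset.mp hS)
        simp [this]
    _ ≤ ∑ S : Finset X, g S * (0 : ℝ) ^ (S \ H).card := by
        apply Finset.sum_le_sum_of_subset_of_nonneg hsub
        intro S _ _
        exact mul_nonneg (hg S) (pow_nonneg le_rfl _)

lemma val_empty {g : Finset X → ℝ} (b : ℝ) : val g b ∅ = fracCost g b := by
  unfold val fracCost
  simp

lemma fracCost_mono {g : Finset X → ℝ} (hg : ∀ S, 0 ≤ g S) {a b : ℝ} (ha : 0 ≤ a) (hab : a ≤ b) :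
    fracCost g a ≤ fracCost g b := by
  unfold fracCost
  apply Finset.sum_le_sum
  intro S _
  exact mul_le_mul_of_nonneg_left (pow_le_pow_left₀ ha hab _) (hg S)

lemma famCost_univ (γ : ℝ) :
    famCost (Finset.univ : Finset (Finset X)) γ = (γ + 1) ^ Fintype.card X := by
  unfold famCost
  have h := Finset.sum_pow_mul_eq_add_pow γ 1 (Finset.univ : Finset X)
  simp only [one_pow, mul_one, Finset.powerset_univ, Finset.card_univ] at h
  exact h

open Classical in
/-- The main implication: fractional smallness at `p` gives smallness at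
`p / (2 (k+1) (k+5))` when `|X| ≤ tower k`. -/
theorem small_of_fracSmall (k : ℕ) (F : Set (Finset X)) (hX : Fintype.card X ≤ tower k)
    (p : ℝ) (hp0 : 0 ≤ p) (hp1 : p ≤ 1) (hF : IsFracSmall F p) :
    IsSmall F (p / (2 * ((k : ℝ) + 1) * ((k : ℝ) + 5))) := by
  obtain ⟨g, ⟨hg01, hgF⟩, hcost⟩ := hF
  have hg : ∀ S, 0 ≤ g S := fun S => (hg01 S).1
  have hne : ∀ b, 0 ≤ b → b ≤ p → 1 ≤ val g b ∅ → False := by
    intro b hb hbp h
    rw [val_empty] at h
    have := fracCost_mono hg hb hbp
    linarith
  let A : Finset (Finset X) := Finset.univ.filter (fun S => S ∈ F)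
  have hAval : ∀ S ∈ A, 1 ≤ val g 0 S := by
    intro S hS
    exact (hgF S (Finset.mem_filter.mp hS).2).trans (val_zero_ge hg S)
  have hk1 : (0 : ℝ) < (k : ℝ) + 1 := by positivity
  have hk5 : (0 : ℝ) < (k : ℝ) + 5 := by positivity
  rcases hp0.eq_or_lt with hp | hp
  · -- the case `p = 0`
    subst hp
    refine ⟨A, fun H hH => ⟨H, Finset.mem_filter.mpr ⟨Finset.mem_univ _, hH⟩,
      Finset.Subset.refl _⟩, ?_⟩
    have : famCost A ((0 : ℝ) / (2 * ((k : ℝ) + 1) * ((k : ℝ) + 5))) = 0 := by
      unfold famCost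
      apply Finset.sum_eq_zero
      intro S hS
      have hSne : S ≠ ∅ := by
        rintro rfl
        exact hne 0 le_rfl le_rfl (hAval _ hS)
      have hpos : S.card ≠ 0 := by
        simpa [Finset.card_eq_zero] using hSne
      simp [hpos]
    rw [this]
    norm_num
  · -- the main case
    set γ : ℝ := p / ((k : ℝ) + 1) with hγdef
    have hγ : 0 < γ := div_pos hp hk1
    have hγ1 : γ ≤ 1 := by
      rw [hγdef, div_le_one hk1]
      have : (0 : ℝ) ≤ k := by positivity
      linarith
    have hDγ : ((k + 1 : ℕ) : ℝ) * γ = p := by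
      rw [hγdef]
      push_cast
      field_simp
    obtain ⟨G, hGcov, hGval, hGcost⟩ := gens hg hγ (k + 1) 0 A le_rfl hAval
    -- the initial cost
    have hZ0 : famCost A γ ≤ Real.exp (Fintype.card X) := by
      have h1 : famCost A γ ≤ famCost (Finset.univ : Finset (Finset X)) γ := by
        unfold famCost
        apply Finset.sum_le_sum_of_subset_of_nonneg (Finset.subset_univ _)
        intro S _ _
        exact pow_nonneg hγ.le _
      rw [famCost_univ] at h1
      have h2 : γ + 1 ≤ Real.exp 1 := by
        have := Real.add_one_le_exp (1 : ℝ)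
        linarith
      calc famCost A γ ≤ (γ + 1) ^ Fintype.card X := h1
        _ ≤ (Real.exp 1) ^ Fintype.card X := pow_le_pow_left₀ (by positivity) h2 _
        _ = Real.exp (Fintype.card X) := by
            rw [← Real.exp_nat_mul]
            simp
    have hstep : logStep (famCost A γ) ≤ (tower k : ℝ) + 3 := by
      unfold logStep
      have hmax : max (famCost A γ) 1 ≤ Real.exp (Fintype.card X) := by
        apply max_le hZ0
        exact Real.one_le_exp (by positivity)
      have hpos : (0 : ℝ) < max (famCost A γ) 1 := lt_of_lt_of_le one_pos (le_max_right _ _)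
      have hlog := Real.log_le_log hpos hmax
      rw [Real.log_exp] at hlog
      have hcast : (Fintype.card X : ℝ) ≤ tower k := by exact_mod_cast hX
      linarith
    have hiter : logStep^[k + 1] (famCost A γ) ≤ 4 := by
      rw [Function.iterate_succ_apply]
      exact (logStep_mono.iterate k hstep).trans (iterate_tower k)
    have hGtotal : famCost G γ ≤ (k : ℝ) + 5 := by
      have : famCost G γ ≤ ((k + 1 : ℕ) : ℝ) + logStep^[k + 1] (famCost A γ) := hGcost
      push_cast at this
      linarith
    -- members of G are nonempty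
    have hGne : ∀ T ∈ G, T.card ≠ 0 := by
      intro T hT hcard
      have hTe : T = ∅ := Finset.card_eq_zero.mp hcard
      obtain ⟨b', hb'0, hb', hval⟩ := hGval T hT
      rw [hTe] at hval
      have hb'p : b' ≤ p := by
        have : b' ≤ 0 + ((k + 1 : ℕ) : ℝ) * γ := hb'
        rw [hDγ] at this
        linarith
      exact hne b' hb'0 hb'p hval
    refine ⟨G, ?_, ?_⟩
    · intro H hH
      obtain ⟨T, hT, hTH⟩ := hGcov H (Finset.mem_filter.mpr ⟨Finset.mem_univ _, hH⟩)
      exact ⟨T, hT, hTH⟩
    · set L : ℝ := 2 * ((k : ℝ) + 5) with hL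
      have hLpos : 0 < L := by positivity
      have hL1 : 1 ≤ L := by
        have : (0 : ℝ) ≤ k := by positivity
        rw [hL]
        linarith
      have hp' : p / (2 * ((k : ℝ) + 1) * ((k : ℝ) + 5)) = γ / L := by
        rw [hγdef, hL]
        field_simp
      rw [hp']
      have hterm : ∀ T ∈ G, (γ / L) ^ T.card ≤ γ ^ T.card / L := by
        intro T hT
        rw [div_pow]
        apply div_le_div_of_nonneg_left (pow_nonneg hγ.le _) hLpos
        calc L = L ^ 1 := (pow_one L).symm
          _ ≤ L ^ T.card := pow_le_pow_right₀ hL1 (Nat.one_le_iff_ne_zero.mpr (hGne T hT))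
      calc famCost G (γ / L) ≤ ∑ T ∈ G, γ ^ T.card / L := Finset.sum_le_sum hterm
        _ = famCost G γ / L := by
            unfold famCost
            rw [Finset.sum_div]
        _ ≤ ((k : ℝ) + 5) / L := div_le_div_of_nonneg_right hGtotal hLpos.le
        _ = 1 / 2 := by
            rw [hL]
            field_simp

/-- **Main theorem.** For every `k`, every finite set `X` with `|X| ≤ tower k` and every family
`F` of subsets of `X` (in particular every nonempty proper increasing family), every `p ∈ [0,1]`
at which `F` has a fractional cover of cost at most `1/2` gives `p / (2(k+1)(k+5))`-smallness of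
`F`, and hence `q_f(F) ≤ 2 (k+1) (k+5) q(F)`. -/
theorem result (k : ℕ) (F : Set (Finset X)) (hX : Fintype.card X ≤ tower k) :
    (∀ p : ℝ, 0 ≤ p → p ≤ 1 → IsFracSmall F p →
      IsSmall F (p / (2 * ((k : ℝ) + 1) * ((k : ℝ) + 5)))) ∧
    qFrac F ≤ 2 * ((k : ℝ) + 1) * ((k : ℝ) + 5) * qInt F := by
  have hmain : ∀ p : ℝ, 0 ≤ p → p ≤ 1 → IsFracSmall F p →
      IsSmall F (p / (2 * ((k : ℝ) + 1) * ((k : ℝ) + 5))) :=
    fun p h0 h1 h => small_of_fracSmall k F hX p h0 h1 h
  refine ⟨hmain, ?_⟩
  set K : ℝ := 2 * ((k : ℝ) + 1) * ((k : ℝ) + 5) with hK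
  have hk0 : (0 : ℝ) ≤ k := by positivity
  have hK1 : 1 ≤ K := by
    rw [hK]
    nlinarith
  have hKpos : 0 < K := by linarith
  have hqInt : 0 ≤ qInt F := by
    apply Real.sSup_nonneg
    intro x hx
    exact hx.1.1
  have hbdd : BddAbove {p : ℝ | p ∈ Set.Icc (0 : ℝ) 1 ∧ IsSmall F p} :=
    ⟨1, fun x hx => hx.1.2⟩
  unfold qFrac
  by_cases hne : {p : ℝ | p ∈ Set.Icc (0 : ℝ) 1 ∧ IsFracSmall F p}.Nonempty
  · apply csSup_le hne
    rintro p ⟨⟨hp0, hp1⟩, hp⟩
    have hmem : p / K ∈ {p : ℝ | p ∈ Set.Icc (0 : ℝ) 1 ∧ IsSmall F p} := by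
      refine ⟨⟨div_nonneg hp0 hKpos.le, ?_⟩, hmain p hp0 hp1 hp⟩
      rw [div_le_one hKpos]
      linarith
    have hle : p / K ≤ qInt F := le_csSup hbdd hmem
    rw [div_le_iff₀ hKpos] at hle
    linarith
  · rw [Set.not_nonempty_iff_eq_empty] at hne
    rw [hne, Real.sSup_empty]
    positivity

end Vale.Agent.Results.P034.A_logstar
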