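import Mathlib

/-!
# Integral versus fractional expectation thresholds: `K = O(log* ell)`.

If every member of `F` contains a member of `F` with at most `tower k` elements, then
`q_f(F) ≤ 4 (k+4) q(F)`.  So `q_f = O(log* ell) q`, with `ell` the largest size of a minimal member.

Proof idea. Let `g` be a fractional cover with `g ∅ = 0` and cost at most `1/2` at `p`, and let
`V_b(U) = ∑ g(M) b^|M \ U|`.

(1) Canonical family.  With `B(c) = δ (L - c)`, let `𝒜` be the family of the sets `U`, `|U| ≤ L`,
with `V_{B(|U|)}(U) ≥ 1` such that no proper subset `W` has `V_{B(|W|)}(W) ≥ 1`.  By a first moment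
argument and downward induction on `|W|`, at most `1 / (δ^(s-|W|) (s-|W|)!)` members of size `s`
contain `W`.  So the cost of `𝒜` at `γ = δ L` is at most `e^L`.

(2) Peeling without remainder.  If `A` consists of sets with `V_b ≥ 1` and `V_{b+γ}(∅) ≤ ε`, then a
global maximizer `C` of `∑_{S ∈ A, S ⊇ C} γ^|S \ C|` satisfies `V_{b+γ}(C) ≥ 1`, and the sets above
`C` carry a mass at least `γ^|C| Z / ε`, where `Z` is the cost of `A` at `γ`.  Replacing them by `C`
and repeating gives a family of cost at most `ε (1 + log (Z / ε))`.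

(3) With `ε = 1/8`, `k + 3` generations of density `γ = p / (4 (k+4))` bring the cost below `1/2`.
-/

open Finset BigOperators

namespace Vale.Agent.Results.P034.B_logstar_ell

set_option linter.unusedSectionVars false

variable {X : Type*} [Fintype X] [DecidableEq X]

/-- The cost `∑_{S ∈ G} p^|S|` of a family `G` at `p`. -/
noncomputable def famCost (G : Finset (Finset X)) (p : ℝ) : ℝ := ∑ S ∈ G, p ^ S.card

/-- `G` covers `F`: every member of `F` contains a member of `G`. -/
def IsCoverOf (G : Finset (Finset X)) (F : Set (Finset X)) : Prop :=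
  ∀ H ∈ F, ∃ S ∈ G, S ⊆ H

/-- `F` is `p`-small: some cover has cost at most `1/2` at `p`. -/
def IsSmall (F : Set (Finset X)) (p : ℝ) : Prop :=
  ∃ G : Finset (Finset X), IsCoverOf G F ∧ famCost G p ≤ 1 / 2

/-- `g : 2^X → [0,1]` is a fractional cover of `F`: `∑_{S ⊆ H} g S ≥ 1` for every `H ∈ F`. -/
def IsFracCover (g : Finset X → ℝ) (F : Set (Finset X)) : Prop :=
  (∀ S, 0 ≤ g S ∧ g S ≤ 1) ∧ ∀ H ∈ F, 1 ≤ ∑ S ∈ H.powerset, g S

/-- The cost `∑_S g(S) p^|S|` of a fractional cover at `p`. -/
noncomputable def fracCost (g : Finset X → ℝ) (p : ℝ) : ℝ := ∑ S : Finset X, g S * p ^ S.card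

/-- Some fractional cover of `F` has cost at most `1/2` at `p`. -/
def IsFracSmall (F : Set (Finset X)) (p : ℝ) : Prop :=
  ∃ g : Finset X → ℝ, IsFracCover g F ∧ fracCost g p ≤ 1 / 2

/-- The integral expectation threshold `q(F) = max {p ∈ [0,1] : F is p-small}`. -/
noncomputable def qInt (F : Set (Finset X)) : ℝ :=
  sSup {p : ℝ | p ∈ Set.Icc (0 : ℝ) 1 ∧ IsSmall F p}

/-- The fractional expectation threshold `q_f(F)`. -/
noncomputable def qFrac (F : Set (Finset X)) : ℝ :=
  sSup {p : ℝ | p ∈ Set.Icc (0 : ℝ) 1 ∧ IsFracSmall F p}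

/-- The tower of twos: `tower 0 = 1`, `tower (k+1) = 2 ^ tower k`. -/
def tower : ℕ → ℕ
  | 0 => 1
  | n + 1 => 2 ^ tower n

/-! ### The value function and the first moment lemma -/

/-- `V_b(U) = ∑_M g(M) b^|M \ U|`. -/
noncomputable def val (g : Finset X → ℝ) (b : ℝ) (U : Finset X) : ℝ :=
  ∑ M : Finset X, g M * b ^ (M \ U).card

/-- `∑_{S ∈ A, S ⊇ C} γ^|S|`. -/
noncomputable def linkCost (A : Finset (Finset X)) (γ : ℝ) (C : Finset X) : ℝ :=
  ∑ S ∈ A.filter (fun S => C ⊆ S), γ ^ S.card

lemma pow_sdiff_le (b : ℝ) (hb : 0 ≤ b) (M S : Finset X) :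
    b ^ (M \ S).card ≤ ∑ J ∈ M.powerset, if J ⊆ S then b ^ (M.card - J.card) else 0 := by
  have hmem : M ∩ S ∈ M.powerset := Finset.mem_powerset.mpr Finset.inter_subset_left
  have hcard : (M \ S).card = M.card - (M ∩ S).card := by
    have h := Finset.card_sdiff_add_card_inter M S
    omega
  have hterm : (if (M ∩ S) ⊆ S then b ^ (M.card - (M ∩ S).card) else 0) = b ^ (M \ S).card := by
    rw [if_pos Finset.inter_subset_right, hcard]
  calc b ^ (M \ S).card
      = (if (M ∩ S) ⊆ S then b ^ (M.card - (M ∩ S).card) else 0) := hterm.symm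
    _ ≤ ∑ J ∈ M.powerset, if J ⊆ S then b ^ (M.card - J.card) else 0 := by
        apply Finset.single_le_sum (f := fun J => if J ⊆ S then b ^ (M.card - J.card) else 0) _ hmem
        intro J _
        split_ifs
        · exact pow_nonneg hb _
        · exact le_refl _

lemma linkCost_union (A : Finset (Finset X)) (γ : ℝ) (C J : Finset X) :
    linkCost A γ (C ∪ J) = ∑ S ∈ A.filter (fun S => C ⊆ S), if J ⊆ S then γ ^ S.card else 0 := by
  unfold linkCost
  rw [Finset.sum_filter (s := A.filter (fun S => C ⊆ S)) (p := fun S => J ⊆ S)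
    (f := fun S => γ ^ S.card) |>.symm, Finset.filter_filter]
  apply Finset.sum_congr _ (fun _ _ => rfl)
  ext S
  simp [Finset.union_subset_iff]


/-- The first moment inequality, with a bound `Λ` for the spread. -/
lemma first_moment {g : Finset X → ℝ} (hg : ∀ S, 0 ≤ g S) {b γ : ℝ} (hb : 0 ≤ b) (hγ : 0 < γ)
    {A : Finset (Finset X)} (hA : ∀ S ∈ A, 1 ≤ val g b S) {C : Finset X} {Λ : ℝ}
    (hspread : ∀ J : Finset X, Disjoint J C → linkCost A γ (C ∪ J) ≤ Λ * γ ^ J.card) :
    linkCost A γ C ≤ Λ * val g (b + γ) C := by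
  -- the contribution of one monomial
  have hM : ∀ M : Finset X,
      ∑ S ∈ A.filter (fun S => C ⊆ S), γ ^ S.card * b ^ (M \ S).card
        ≤ Λ * (b + γ) ^ (M \ C).card := by
    intro M
    set M' := M \ C with hM'
    have h1 : ∀ S ∈ A.filter (fun S => C ⊆ S),
        γ ^ S.card * b ^ (M \ S).card
          ≤ ∑ J ∈ M'.powerset,
              (if J ⊆ S then γ ^ S.card else 0) * b ^ (M'.card - J.card) := by
      intro S hS
      have hCS : C ⊆ S := (Finset.mem_filter.mp hS).2
      have hsd : M \ S = M' \ S := by
        ext x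
        simp only [hM', Finset.mem_sdiff]
        constructor
        · rintro ⟨h1, h2⟩
          exact ⟨⟨h1, fun h => h2 (hCS h)⟩, h2⟩
        · rintro ⟨⟨h1, _⟩, h3⟩
          exact ⟨h1, h3⟩
      rw [hsd]
      calc γ ^ S.card * b ^ (M' \ S).card
          ≤ γ ^ S.card * ∑ J ∈ M'.powerset,
              (if J ⊆ S then b ^ (M'.card - J.card) else 0) :=
            mul_le_mul_of_nonneg_left (pow_sdiff_le b hb M' S) (pow_nonneg hγ.le _)
        _ = ∑ J ∈ M'.powerset,
              (if J ⊆ S then γ ^ S.card else 0) * b ^ (M'.card - J.card) := by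
            rw [Finset.mul_sum]
            apply Finset.sum_congr rfl
            intro J _
            split_ifs <;> simp
    calc ∑ S ∈ A.filter (fun S => C ⊆ S), γ ^ S.card * b ^ (M \ S).card
        ≤ ∑ S ∈ A.filter (fun S => C ⊆ S), ∑ J ∈ M'.powerset,
              (if J ⊆ S then γ ^ S.card else 0) * b ^ (M'.card - J.card) :=
          Finset.sum_le_sum h1
      _ = ∑ J ∈ M'.powerset, ∑ S ∈ A.filter (fun S => C ⊆ S),
              (if J ⊆ S then γ ^ S.card else 0) * b ^ (M'.card - J.card) :=
          Finset.sum_comm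
      _ = ∑ J ∈ M'.powerset, linkCost A γ (C ∪ J) * b ^ (M'.card - J.card) := by
          apply Finset.sum_congr rfl
          intro J _
          rw [linkCost_union, Finset.sum_mul]
      _ ≤ ∑ J ∈ M'.powerset, (Λ * γ ^ J.card) * b ^ (M'.card - J.card) := by
          apply Finset.sum_le_sum
          intro J hJ
          have hJM : J ⊆ M' := Finset.mem_powerset.mp hJ
          have hdisj : Disjoint J C := by
            rw [Finset.disjoint_left]
            intro x hx hxC
            have := hJM hx
            rw [hM', Finset.mem_sdiff] at this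
            exact this.2 hxC
          exact mul_le_mul_of_nonneg_right (hspread J hdisj) (pow_nonneg hb _)
      _ = Λ * ∑ J ∈ M'.powerset, γ ^ J.card * b ^ (M'.card - J.card) := by
          rw [Finset.mul_sum]
          apply Finset.sum_congr rfl
          intro J _
          ring
      _ = Λ * (b + γ) ^ M'.card := by
          rw [Finset.sum_pow_mul_eq_add_pow, add_comm]
  -- sum over the monomials
  calc linkCost A γ C
      = ∑ S ∈ A.filter (fun S => C ⊆ S), γ ^ S.card * 1 := by
        unfold linkCost; simp
    _ ≤ ∑ S ∈ A.filter (fun S => C ⊆ S), γ ^ S.card * val g b S := by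
        apply Finset.sum_le_sum
        intro S hS
        exact mul_le_mul_of_nonneg_left (hA S (Finset.mem_filter.mp hS).1) (pow_nonneg hγ.le _)
    _ = ∑ M : Finset X, g M *
          ∑ S ∈ A.filter (fun S => C ⊆ S), γ ^ S.card * b ^ (M \ S).card := by
        unfold val
        simp only [Finset.mul_sum]
        rw [Finset.sum_comm]
        apply Finset.sum_congr rfl
        intro M _
        apply Finset.sum_congr rfl
        intro S _
        ring
    _ ≤ ∑ M : Finset X, g M * (Λ * (b + γ) ^ (M \ C).card) := by
        apply Finset.sum_le_sum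
        intro M _
        exact mul_le_mul_of_nonneg_left (hM M) (hg M)
    _ = Λ * val g (b + γ) C := by
        unfold val
        rw [Finset.mul_sum]
        apply Finset.sum_congr rfl
        intro M _
        ring

/-- Above a spread kernel `C`, the value at `b + γ` is at least `1`. -/
lemma kernel_val {g : Finset X → ℝ} (hg : ∀ S, 0 ≤ g S) {b γ : ℝ} (hb : 0 ≤ b) (hγ : 0 < γ)
    {A : Finset (Finset X)} (hA : ∀ S ∈ A, 1 ≤ val g b S) {C : Finset X}
    (hL : 0 < linkCost A γ C)
    (hspread : ∀ J : Finset X, Disjoint J C →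
      linkCost A γ (C ∪ J) ≤ linkCost A γ C * γ ^ J.card) :
    1 ≤ val g (b + γ) C := by
  have h := first_moment hg hb hγ hA hspread
  by_contra hcon
  push Not at hcon
  nlinarith

lemma val_mono {g : Finset X → ℝ} (hg : ∀ S, 0 ≤ g S) {a b : ℝ} (ha : 0 ≤ a) (hab : a ≤ b)
    (U : Finset X) : val g a U ≤ val g b U := by
  unfold val
  apply Finset.sum_le_sum
  intro M _
  exact mul_le_mul_of_nonneg_left (pow_le_pow_left₀ ha hab _) (hg M)

/-! ### One generation: peeling without remainder -/

lemma famCost_nonneg (G : Finset (Finset X)) {γ : ℝ} (hγ : 0 ≤ γ) : 0 ≤ famCost G γ :=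
  Finset.sum_nonneg (fun _ _ => pow_nonneg hγ _)

lemma famCost_insert_le (G : Finset (Finset X)) {γ : ℝ} (hγ : 0 ≤ γ) (C : Finset X) :
    famCost (insert C G) γ ≤ famCost G γ + γ ^ C.card := by
  unfold famCost
  by_cases h : C ∈ G
  · rw [Finset.insert_eq_of_mem h]
    linarith [pow_nonneg hγ C.card]
  · rw [Finset.sum_insert h]
    linarith

lemma linkCost_empty (A : Finset (Finset X)) (γ : ℝ) : linkCost A γ ∅ = famCost A γ := by
  unfold linkCost famCost
  simp

/-- One generation of peeling, when the value of `∅` at the new density is at most `ε`. -/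
lemma peel {g : Finset X → ℝ} (hg : ∀ S, 0 ≤ g S) {b γ ε : ℝ} (hb : 0 ≤ b) (hγ : 0 < γ)
    (hε : 0 < ε) (hV : val g (b + γ) ∅ ≤ ε) :
    ∀ (n : ℕ) (A : Finset (Finset X)), A.card = n → (∀ S ∈ A, 1 ≤ val g b S) →
      ∃ A' : Finset (Finset X),
        (∀ C ∈ A', 1 ≤ val g (b + γ) C) ∧
        (∀ S ∈ A, ∃ C ∈ A', C ⊆ S) ∧
        famCost A' γ ≤ (if famCost A γ ≤ ε then famCost A γ
          else ε * (1 + Real.log (famCost A γ / ε))) := by
  intro n
  induction n using Nat.strong_induction_on with
  | _ n ih =>
    intro A hn hA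
    by_cases hZ : famCost A γ ≤ ε
    · refine ⟨A, ?_, fun S hS => ⟨S, hS, Finset.Subset.refl _⟩, ?_⟩
      · intro C hC
        exact (hA C hC).trans (val_mono hg hb (by linarith) C)
      · rw [if_pos hZ]
    · push Not at hZ
      set Z := famCost A γ with hZdef
      have hZpos : 0 < Z := by linarith
      -- the global maximizer of the normalized link cost
      let Φ : Finset X → ℝ := fun C => linkCost A γ C / γ ^ C.card
      obtain ⟨C, -, hCmax⟩ := Finset.exists_max_image (Finset.univ : Finset (Finset X)) Φ
        ⟨∅, Finset.mem_univ _⟩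
      have hΦ : ∀ D : Finset X, linkCost A γ D ≤ Φ C * γ ^ D.card := by
        intro D
        have h1 : Φ D ≤ Φ C := hCmax D (Finset.mem_univ _)
        have h2 : 0 < γ ^ D.card := pow_pos hγ _
        have h3 : Φ D * γ ^ D.card = linkCost A γ D := by
          show linkCost A γ D / γ ^ D.card * γ ^ D.card = linkCost A γ D
          field_simp
        calc linkCost A γ D = Φ D * γ ^ D.card := h3.symm
          _ ≤ Φ C * γ ^ D.card := mul_le_mul_of_nonneg_right h1 h2.le
      have hgpos : 0 < γ ^ C.card := pow_pos hγ _
      have hΦC : Φ C * γ ^ C.card = linkCost A γ C := by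
        show linkCost A γ C / γ ^ C.card * γ ^ C.card = linkCost A γ C
        field_simp
      -- the bound at the empty set
      have hfm : Z ≤ Φ C * val g (b + γ) ∅ := by
        have := first_moment (C := ∅) (Λ := Φ C) hg hb hγ hA (by
          intro J _
          rw [Finset.empty_union]
          exact hΦ J)
        rwa [linkCost_empty] at this
      have hΦpos : 0 < Φ C := by
        by_contra hcon
        push Not at hcon
        have hv0 : 0 ≤ val g (b + γ) ∅ := by
          unfold val
          exact Finset.sum_nonneg (fun M _ => mul_nonneg (hg M) (pow_nonneg (by linarith) _))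
        have : Φ C * val g (b + γ) ∅ ≤ 0 := mul_nonpos_of_nonpos_of_nonneg hcon hv0
        linarith
      have hZle : Z ≤ Φ C * ε := hfm.trans (mul_le_mul_of_nonneg_left hV hΦpos.le)
      have hLpos : 0 < linkCost A γ C := by
        rw [← hΦC]
        exact mul_pos hΦpos hgpos
      have hspread : ∀ J : Finset X, Disjoint J C →
          linkCost A γ (C ∪ J) ≤ linkCost A γ C * γ ^ J.card := by
        intro J hJ
        have hcard : (C ∪ J).card = C.card + J.card := by
          rw [Finset.card_union_of_disjoint hJ.symm]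
        calc linkCost A γ (C ∪ J) ≤ Φ C * γ ^ (C ∪ J).card := hΦ _
          _ = (Φ C * γ ^ C.card) * γ ^ J.card := by rw [hcard, pow_add]; ring
          _ = linkCost A γ C * γ ^ J.card := by rw [hΦC]
      have hCval : 1 ≤ val g (b + γ) C := kernel_val hg hb hγ hA hLpos hspread
      -- remove everything above C
      let A1 := A.filter (fun S => ¬ C ⊆ S)
      have hsplit : Z = linkCost A γ C + famCost A1 γ := by
        unfold linkCost famCost
        rw [hZdef]
        unfold famCost
        rw [Finset.sum_filter_add_sum_filter_not]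
      have hexists : ∃ S ∈ A, C ⊆ S := by
        by_contra hcon
        push Not at hcon
        have : A.filter (fun S => C ⊆ S) = ∅ := by
          apply Finset.filter_eq_empty_iff.mpr
          intro S hS
          exact hcon S hS
        unfold linkCost at hLpos
        rw [this] at hLpos
        simp at hLpos
      have hcardlt : A1.card < n := by
        rw [← hn]
        apply Finset.card_lt_card
        refine ⟨Finset.filter_subset _ _, ?_⟩
        intro hsub
        obtain ⟨S, hS, hCS⟩ := hexists
        have := hsub hS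
        exact (Finset.mem_filter.mp this).2 hCS
      obtain ⟨A', hA', hcov, hcost⟩ :=
        ih A1.card hcardlt A1 rfl (fun S hS => hA S (Finset.mem_filter.mp hS).1)
      refine ⟨insert C A', ?_, ?_, ?_⟩
      · intro D hD
        rcases Finset.mem_insert.mp hD with rfl | hD
        · exact hCval
        · exact hA' D hD
      · intro S hS
        by_cases hCS : C ⊆ S
        · exact ⟨C, Finset.mem_insert_self _ _, hCS⟩
        · obtain ⟨D, hD, hDS⟩ := hcov S (Finset.mem_filter.mpr ⟨hS, hCS⟩)
          exact ⟨D, Finset.mem_insert_of_mem hD, hDS⟩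
      · rw [if_neg (not_le.mpr hZ)]
        set Z1 := famCost A1 γ with hZ1
        have hZ1nn : 0 ≤ Z1 := famCost_nonneg _ hγ.le
        have hLeq : linkCost A γ C = Z - Z1 := by linarith
        have hgC : γ ^ C.card ≤ (Z - Z1) * ε / Z := by
          rw [le_div_iff₀ hZpos, ← hLeq, ← hΦC]
          have : γ ^ C.card * Z ≤ γ ^ C.card * (Φ C * ε) :=
            mul_le_mul_of_nonneg_left hZle hgpos.le
          linarith
        have hZ1le : Z1 ≤ Z := by
          have : 0 < linkCost A γ C := hLpos
          linarith
        have hxpos : 0 < Z / ε := div_pos hZpos hε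
        have hlogx := Real.one_sub_inv_le_log_of_pos hxpos
        rw [inv_div] at hlogx
        calc famCost (insert C A') γ ≤ famCost A' γ + γ ^ C.card := famCost_insert_le _ hγ.le _
          _ ≤ (if Z1 ≤ ε then Z1 else ε * (1 + Real.log (Z1 / ε))) + (Z - Z1) * ε / Z :=
              add_le_add hcost hgC
          _ ≤ ε * (1 + Real.log (Z / ε)) := by
              by_cases hZ1e : Z1 ≤ ε
              · rw [if_pos hZ1e]
                have h1 : (Z - Z1) * ε / Z = ε - Z1 * (ε / Z) := by
                  field_simp
                have h2 : 0 ≤ 1 - ε / Z := by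
                  have : ε / Z ≤ 1 := by
                    rw [div_le_one hZpos]
                    exact hZ.le
                  linarith
                have h3 : Z1 * (1 - ε / Z) ≤ ε * (1 - ε / Z) :=
                  mul_le_mul_of_nonneg_right hZ1e h2
                have h4 : ε * (1 - ε / Z) ≤ ε * Real.log (Z / ε) :=
                  mul_le_mul_of_nonneg_left hlogx hε.le
                rw [h1]
                nlinarith
              · rw [if_neg hZ1e]
                push Not at hZ1e
                have hZ1pos : 0 < Z1 := by linarith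
                have hy : 0 < Z / Z1 := div_pos hZpos hZ1pos
                have hlogy := Real.one_sub_inv_le_log_of_pos hy
                rw [inv_div] at hlogy
                have hadd : Real.log (Z / ε) = Real.log (Z / Z1) + Real.log (Z1 / ε) := by
                  rw [Real.log_div hZpos.ne' hε.ne', Real.log_div hZpos.ne' hZ1pos.ne',
                    Real.log_div hZ1pos.ne' hε.ne']
                  ring
                have h1 : (Z - Z1) * ε / Z = ε * (1 - Z1 / Z) := by
                  field_simp
                have h2 : ε * (1 - Z1 / Z) ≤ ε * Real.log (Z / Z1) :=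
                  mul_le_mul_of_nonneg_left hlogy hε.le
                rw [h1, hadd]
                nlinarith

/-- The bound after one generation. -/
noncomputable def step (ε z : ℝ) : ℝ := ε * (1 + Real.log (max (z / ε) 1))

lemma step_mono {ε : ℝ} (hε : 0 < ε) : Monotone (step ε) := by
  intro x y hxy
  unfold step
  have h1 : (0 : ℝ) < max (x / ε) 1 := lt_of_lt_of_le one_pos (le_max_right _ _)
  have h2 : max (x / ε) 1 ≤ max (y / ε) 1 :=
    max_le_max (div_le_div_of_nonneg_right hxy hε.le) le_rfl
  have h3 := Real.log_le_log h1 h2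
  exact mul_le_mul_of_nonneg_left (by linarith) hε.le

/-- Iterating the generations. -/
lemma gens {g : Finset X → ℝ} (hg : ∀ S, 0 ≤ g S) {γ ε : ℝ} (hγ : 0 < γ) (hε : 0 < ε) :
    ∀ (m : ℕ) (b : ℝ) (A : Finset (Finset X)), 0 ≤ b → val g (b + m * γ) ∅ ≤ ε →
      (∀ S ∈ A, 1 ≤ val g b S) →
      ∃ G : Finset (Finset X),
        (∀ S ∈ A, ∃ T ∈ G, T ⊆ S) ∧ famCost G γ ≤ (step ε)^[m] (famCost A γ) := by
  intro m
  induction m with
  | zero =>
    intro b A _ _ _
    exact ⟨A, fun S hS => ⟨S, hS, Finset.Subset.refl _⟩, by simp⟩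
  | succ m ih =>
    intro b A hb hV hA
    have hm : (0 : ℝ) ≤ (m : ℝ) * γ := by positivity
    have hV1 : val g (b + γ) ∅ ≤ ε := by
      refine (val_mono hg (by linarith) ?_ ∅).trans hV
      push_cast
      nlinarith
    obtain ⟨A', hA', hcov, hcost⟩ := peel hg hb hγ hε hV1 A.card A rfl hA
    have hV2 : val g (b + γ + m * γ) ∅ ≤ ε := by
      have : b + γ + (m : ℝ) * γ = b + ((m + 1 : ℕ) : ℝ) * γ := by
        push_cast
        ring
      rw [this]
      exact hV
    obtain ⟨G, hGcov, hGcost⟩ := ih (b + γ) A' (by linarith) hV2 hA'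
    refine ⟨G, ?_, ?_⟩
    · intro S hS
      obtain ⟨C, hC, hCS⟩ := hcov S hS
      obtain ⟨T, hT, hTC⟩ := hGcov C hC
      exact ⟨T, hT, hTC.trans hCS⟩
    · have hstep : famCost A' γ ≤ step ε (famCost A γ) := by
        refine hcost.trans ?_
        unfold step
        by_cases hZ : famCost A γ ≤ ε
        · rw [if_pos hZ]
          have : famCost A γ / ε ≤ 1 := by
            rw [div_le_one hε]
            exact hZ
          rw [max_eq_right this, Real.log_one]
          linarith
        · rw [if_neg hZ]
          have : 1 ≤ famCost A γ / ε := by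
            rw [one_le_div hε]
            exact (not_le.mp hZ).le
          rw [max_eq_left this]
      rw [Function.iterate_succ_apply]
      exact hGcost.trans ((step_mono hε).iterate m hstep)

/-! ### The tower bound -/

lemma tower_pos (k : ℕ) : 1 ≤ tower k := by
  induction k with
  | zero => simp [tower]
  | succ k _ =>
    simp only [tower]
    exact Nat.one_le_two_pow

lemma step_two_pow {T : ℕ} (hT : 1 ≤ T) : step (1 / 8) ((2 : ℝ) ^ T) ≤ (T : ℝ) := by
  unfold step
  have h8 : (2 : ℝ) ^ T / (1 / 8) = (2 : ℝ) ^ (T + 3) := by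
    rw [pow_add]
    norm_num
    ring
  have h1 : (1 : ℝ) ≤ (2 : ℝ) ^ (T + 3) := one_le_pow₀ (by norm_num)
  rw [h8, max_eq_left h1, Real.log_pow]
  have hlog2 : Real.log 2 < 0.6931471808 := Real.log_two_lt_d9
  have hT' : (1 : ℝ) ≤ (T : ℝ) := by exact_mod_cast hT
  push_cast
  nlinarith

lemma step_one : step (1 / 8) 1 ≤ 1 / 2 := by
  unfold step
  have h8 : (1 : ℝ) / (1 / 8) = (2 : ℝ) ^ 3 := by norm_num
  have h1 : (1 : ℝ) ≤ (2 : ℝ) ^ 3 := by norm_num
  rw [h8, max_eq_left h1, Real.log_pow]
  have hlog2 : Real.log 2 < 0.6931471808 := Real.log_two_lt_d9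
  push_cast
  nlinarith

lemma iterate_tower (k : ℕ) : (step (1 / 8))^[k] (tower k : ℝ) ≤ 1 := by
  induction k with
  | zero => simp [tower]
  | succ k ih =>
    rw [Function.iterate_succ_apply]
    have h : step (1 / 8) (tower (k + 1) : ℝ) ≤ (tower k : ℝ) := by
      have := step_two_pow (tower_pos k)
      simpa [tower] using this
    exact ((step_mono (by norm_num)).iterate k h).trans ih

lemma iterate_tower' (k : ℕ) : (step (1 / 8))^[k + 1] (tower k : ℝ) ≤ 1 / 2 := by
  rw [Function.iterate_succ_apply']
  exact (step_mono (by norm_num) (iterate_tower k)).trans step_one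

/-! ### The canonical family -/

/-- `U` is heavy at its own level. -/
def Heavy (g : Finset X → ℝ) (δ : ℝ) (L : ℕ) (U : Finset X) : Prop :=
  U.card ≤ L ∧ 1 ≤ val g (δ * ((L : ℝ) - U.card)) U

open Classical in
/-- The canonical family: heavy sets without heavy proper subsets. -/
noncomputable def canon (g : Finset X → ℝ) (δ : ℝ) (L : ℕ) : Finset (Finset X) :=
  Finset.univ.filter (fun U => Heavy g δ L U ∧ ∀ W, W ⊂ U → ¬ Heavy g δ L W)

lemma mem_canon {g : Finset X → ℝ} {δ : ℝ} {L : ℕ} {U : Finset X} :
    U ∈ canon g δ L ↔ Heavy g δ L U ∧ ∀ W, W ⊂ U → ¬ Heavy g δ L W := by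
  classical
  unfold canon
  simp

open Classical in
/-- The members of size `s` of the canonical family. -/
noncomputable def canonS (g : Finset X → ℝ) (δ : ℝ) (L s : ℕ) : Finset (Finset X) :=
  (canon g δ L).filter (fun U => U.card = s)

lemma linkCost_canonS (g : Finset X → ℝ) (δ : ℝ) (L s : ℕ) (γ : ℝ) (W : Finset X) :
    linkCost (canonS g δ L s) γ W =
      (((canonS g δ L s).filter (fun U => W ⊆ U)).card : ℝ) * γ ^ s := by
  unfold linkCost
  rw [Finset.sum_congr rfl (g := fun _ => γ ^ s), Finset.sum_const, nsmul_eq_mul]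
  intro U hU
  have : U ∈ canonS g δ L s := (Finset.mem_filter.mp hU).1
  unfold canonS at this
  rw [(Finset.mem_filter.mp this).2]

/-- The counting bound for the canonical family. -/
lemma canon_count {g : Finset X → ℝ} (hg : ∀ S, 0 ≤ g S) {δ : ℝ} (hδ : 0 < δ) (L s : ℕ) :
    ∀ (d : ℕ) (W : Finset X), W.card + d = s →
      (((canonS g δ L s).filter (fun U => W ⊆ U)).card : ℝ) * (δ ^ d * (d.factorial : ℝ)) ≤ 1 := by
  intro d
  induction d using Nat.strong_induction_on with
  | _ d ih =>
    intro W hW
    rcases Nat.eq_zero_or_pos d with rfl | hd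
    · -- `W` has full size
      have hle : ((canonS g δ L s).filter (fun U => W ⊆ U)).card ≤ 1 := by
        rw [Finset.card_le_one]
        intro U hU U' hU'
        have h1 := Finset.mem_filter.mp hU
        have h2 := Finset.mem_filter.mp hU'
        have hcU : U.card = s := (Finset.mem_filter.mp h1.1).2
        have hcU' : U'.card = s := (Finset.mem_filter.mp h2.1).2
        have e1 : W = U := Finset.eq_of_subset_of_card_le h1.2 (by omega)
        have e2 : W = U' := Finset.eq_of_subset_of_card_le h2.2 (by omega)
        rw [← e1, ← e2]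
      have : (((canonS g δ L s).filter (fun U => W ⊆ U)).card : ℝ) ≤ 1 := by exact_mod_cast hle
      simpa using this
    · by_contra hcon
      push Not at hcon
      set N : ℝ := (((canonS g δ L s).filter (fun U => W ⊆ U)).card : ℝ) with hN
      have hδd : 0 < δ ^ d * (d.factorial : ℝ) := by positivity
      have hNpos : 0 < N := by
        by_contra hN0
        push Not at hN0
        have : N * (δ ^ d * (d.factorial : ℝ)) ≤ 0 := mul_nonpos_of_nonpos_of_nonneg hN0 hδd.le
        linarith
      -- a member above `W`
      have hne : ((canonS g δ L s).filter (fun U => W ⊆ U)).Nonempty := by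
        rw [← Finset.card_pos]
        have : (0 : ℝ) < (((canonS g δ L s).filter (fun U => W ⊆ U)).card : ℝ) := hNpos
        exact_mod_cast this
      obtain ⟨U, hU⟩ := hne
      have hU1 := Finset.mem_filter.mp hU
      have hU2 := Finset.mem_filter.mp hU1.1
      have hU3 := mem_canon.mp hU2.1
      have hcU : U.card = s := hU2.2
      have hWU : W ⊂ U := by
        refine Finset.ssubset_iff_subset_ne.mpr ⟨hU1.2, ?_⟩
        rintro rfl
        omega
      have hWnh : ¬ Heavy g δ L W := hU3.2 W hWU
      have hsL : s ≤ L := by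
        have := hU3.1.1
        omega
      have hWval : val g (δ * ((L : ℝ) - W.card)) W < 1 := by
        by_contra hge
        push Not at hge
        exact hWnh ⟨by omega, hge⟩
      -- the first moment step
      have hsL' : (s : ℝ) ≤ L := by exact_mod_cast hsL
      have hb0 : 0 ≤ δ * ((L : ℝ) - s) := mul_nonneg hδ.le (by linarith)
      have hdpos : (0 : ℝ) < d := by exact_mod_cast hd
      have hγ : 0 < δ * (d : ℝ) := mul_pos hδ hdpos
      have hA : ∀ S ∈ canonS g δ L s, 1 ≤ val g (δ * ((L : ℝ) - s)) S := by
        intro S hS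
        have hS1 := Finset.mem_filter.mp hS
        have hS2 := mem_canon.mp hS1.1
        have := hS2.1.2
        rwa [hS1.2] at this
      have hL : 0 < linkCost (canonS g δ L s) (δ * (d : ℝ)) W := by
        rw [linkCost_canonS]
        exact mul_pos hNpos (pow_pos hγ _)
      have hspread : ∀ J : Finset X, Disjoint J W →
          linkCost (canonS g δ L s) (δ * (d : ℝ)) (W ∪ J) ≤
            linkCost (canonS g δ L s) (δ * (d : ℝ)) W * (δ * (d : ℝ)) ^ J.card := by
        intro J hJ
        rw [linkCost_canonS, linkCost_canonS]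
        set N' : ℝ := (((canonS g δ L s).filter (fun U => W ∪ J ⊆ U)).card : ℝ) with hN'
        have hkey : N' ≤ N * (δ * (d : ℝ)) ^ J.card := by
          rcases Nat.eq_zero_or_pos J.card with hJ0 | hJpos
          · have : J = ∅ := Finset.card_eq_zero.mp hJ0
            subst this
            simp [hN', hN]
          · have hcard : (W ∪ J).card = W.card + J.card := by
              rw [Finset.card_union_of_disjoint hJ.symm]
            by_cases hJd : J.card ≤ d
            · have hih := ih (d - J.card) (by omega) (W ∪ J) (by omega)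
              have hfac : (d - J.card).factorial * d.descFactorial J.card = d.factorial :=
                Nat.factorial_mul_descFactorial hJd
              have hfacR : (((d - J.card).factorial : ℝ)) * (d.descFactorial J.card : ℝ) =
                  (d.factorial : ℝ) := by exact_mod_cast hfac
              have hdesc : ((d.descFactorial J.card : ℕ) : ℝ) ≤ (d : ℝ) ^ J.card := by
                exact_mod_cast Nat.descFactorial_le_pow d J.card
              have hpow : δ ^ d = δ ^ (d - J.card) * δ ^ J.card := by
                rw [← pow_add]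
                congr 1
                omega
              set c : ℝ := δ ^ (d - J.card) * ((d - J.card).factorial : ℝ) with hc
              have hcpos : 0 < c := by positivity
              have hN'c : N' * c ≤ 1 := hih
              have hNc : 1 < N * (c * (δ ^ J.card * (d.descFactorial J.card : ℝ))) := by
                have : N * (δ ^ d * (d.factorial : ℝ)) =
                    N * (c * (δ ^ J.card * (d.descFactorial J.card : ℝ))) := by
                  rw [hpow, ← hfacR, hc]
                  ring
                rw [← this]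
                exact hcon
              have hlt : N' * c < N * (δ ^ J.card * (d.descFactorial J.card : ℝ)) * c := by
                calc N' * c ≤ 1 := hN'c
                  _ < N * (c * (δ ^ J.card * (d.descFactorial J.card : ℝ))) := hNc
                  _ = N * (δ ^ J.card * (d.descFactorial J.card : ℝ)) * c := by ring
              have h1 : N' < N * (δ ^ J.card * (d.descFactorial J.card : ℝ)) :=
                lt_of_mul_lt_mul_right hlt hcpos.le
              have h2 : N * (δ ^ J.card * (d.descFactorial J.card : ℝ)) ≤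
                  N * (δ ^ J.card * (d : ℝ) ^ J.card) := by
                apply mul_le_mul_of_nonneg_left _ hNpos.le
                exact mul_le_mul_of_nonneg_left hdesc (by positivity)
              rw [mul_pow]
              linarith
            · -- no member of size `s` contains `W ∪ J`
              have hempty : (canonS g δ L s).filter (fun U => W ∪ J ⊆ U) = ∅ := by
                apply Finset.filter_eq_empty_iff.mpr
                intro U' hU' hsub
                have h1 := Finset.card_le_card hsub
                have h2 : U'.card = s := (Finset.mem_filter.mp hU').2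
                omega
              have : N' = 0 := by
                rw [hN', hempty]
                simp
              rw [this]
              positivity
        calc N' * (δ * (d : ℝ)) ^ s ≤ (N * (δ * (d : ℝ)) ^ J.card) * (δ * (d : ℝ)) ^ s :=
              mul_le_mul_of_nonneg_right hkey (pow_nonneg hγ.le _)
          _ = N * (δ * (d : ℝ)) ^ s * (δ * (d : ℝ)) ^ J.card := by ring
      have hval := kernel_val hg hb0 hγ hA hL hspread
      have hlevel : δ * ((L : ℝ) - s) + δ * (d : ℝ) = δ * ((L : ℝ) - W.card) := by
        have : (s : ℝ) = (W.card : ℝ) + d := by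
          rw [← hW]
          push_cast
          ring
        rw [this]
        ring
      rw [hlevel] at hval
      linarith

/-- The cost of the canonical family. -/
lemma canon_cost {g : Finset X → ℝ} (hg : ∀ S, 0 ≤ g S) {δ : ℝ} (hδ : 0 < δ) (L : ℕ) :
    famCost (canon g δ L) (δ * (L : ℝ)) ≤ Real.exp (L : ℝ) := by
  classical
  unfold famCost
  have hmaps : ∀ U ∈ canon g δ L, U.card ∈ Finset.range (L + 1) := by
    intro U hU
    have h1 := (mem_canon.mp hU).1.1
    exact Finset.mem_range.mpr (by omega)
  rw [← Finset.sum_fiberwise_of_maps_to hmaps]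
  calc ∑ s ∈ Finset.range (L + 1), ∑ U ∈ (canon g δ L).filter (fun U => U.card = s),
        (δ * (L : ℝ)) ^ U.card
      ≤ ∑ s ∈ Finset.range (L + 1), (L : ℝ) ^ s / (s.factorial : ℝ) := by
        apply Finset.sum_le_sum
        intro s _
        have hc := canon_count hg hδ L s s ∅ (by simp)
        have hf : (canonS g δ L s).filter (fun U => ∅ ⊆ U) = canonS g δ L s := by
          apply Finset.filter_true_of_mem
          intro U _
          exact Finset.empty_subset U
        rw [hf] at hc
        have hsum : ∑ U ∈ (canon g δ L).filter (fun U => U.card = s), (δ * (L : ℝ)) ^ U.card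
            = ((canonS g δ L s).card : ℝ) * (δ * (L : ℝ)) ^ s := by
          have : (canon g δ L).filter (fun U => U.card = s) = canonS g δ L s := by
            unfold canonS
            apply Finset.filter_congr_decidable
          rw [this, Finset.sum_congr rfl (g := fun _ => (δ * (L : ℝ)) ^ s), Finset.sum_const,
            nsmul_eq_mul]
          intro U hU
          rw [(Finset.mem_filter.mp hU).2]
        rw [hsum, le_div_iff₀ (by positivity), mul_pow]
        have hL0 : (0 : ℝ) ≤ (L : ℝ) ^ s := by positivity
        calc ((canonS g δ L s).card : ℝ) * (δ ^ s * (L : ℝ) ^ s) * (s.factorial : ℝ)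
            = (((canonS g δ L s).card : ℝ) * (δ ^ s * (s.factorial : ℝ))) * (L : ℝ) ^ s := by ring
          _ ≤ 1 * (L : ℝ) ^ s := mul_le_mul_of_nonneg_right hc hL0
          _ = (L : ℝ) ^ s := one_mul _
    _ ≤ Real.exp (L : ℝ) := Real.sum_le_exp_of_nonneg (by positivity) _

lemma val_zero_ge {g : Finset X → ℝ} (hg : ∀ S, 0 ≤ g S) (H : Finset X) :
    ∑ S ∈ H.powerset, g S ≤ val g 0 H := by
  unfold val
  have hsub : H.powerset ⊆ (Finset.univ : Finset (Finset X)) := Finset.subset_univ _
  calc ∑ S ∈ H.powerset, g S
      = ∑ S ∈ H.powerset, g S * (0 : ℝ) ^ (S \ H).card := by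
        apply Finset.sum_congr rfl
        intro S hS
        have : S \ H = ∅ := Finset.sdiff_eq_empty_iff_subset.mpr (Finset.mem_powerset.mp hS)
        simp [this]
    _ ≤ ∑ S : Finset X, g S * (0 : ℝ) ^ (S \ H).card := by
        apply Finset.sum_le_sum_of_subset_of_nonneg hsub
        intro S _ _
        exact mul_nonneg (hg S) (pow_nonneg le_rfl _)

/-- Every set of size at most `L` with value at least `1` at `0` contains a canonical set. -/
lemma canon_cover {g : Finset X → ℝ} (hg : ∀ S, 0 ≤ g S) {δ : ℝ} (hδ : 0 < δ) {L : ℕ}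
    {S : Finset X} (hS : S.card ≤ L) (hS1 : 1 ≤ val g 0 S) : ∃ U ∈ canon g δ L, U ⊆ S := by
  classical
  have hSL : (S.card : ℝ) ≤ L := by exact_mod_cast hS
  have hheavy : Heavy g δ L S :=
    ⟨hS, hS1.trans (val_mono hg le_rfl (mul_nonneg hδ.le (by linarith)) S)⟩
  let P := S.powerset.filter (fun U => Heavy g δ L U)
  have hP : P.Nonempty := ⟨S, Finset.mem_filter.mpr ⟨Finset.mem_powerset.mpr (Finset.Subset.refl _),
    hheavy⟩⟩
  obtain ⟨U, hU, hUmin⟩ := Finset.exists_min_image P (fun U => U.card) hP
  have hU1 := Finset.mem_filter.mp hU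
  have hUS : U ⊆ S := Finset.mem_powerset.mp hU1.1
  refine ⟨U, ?_, hUS⟩
  refine mem_canon.mpr ⟨hU1.2, ?_⟩
  intro W hW hWh
  have hWP : W ∈ P :=
    Finset.mem_filter.mpr ⟨Finset.mem_powerset.mpr (hW.subset.trans hUS), hWh⟩
  have := hUmin W hWP
  have := Finset.card_lt_card hW
  omega

/-- Canonical sets have value at least `1` at the top level. -/
lemma canon_val {g : Finset X → ℝ} (hg : ∀ S, 0 ≤ g S) {δ : ℝ} (hδ : 0 < δ) {L : ℕ}
    {U : Finset X} (hU : U ∈ canon g δ L) : 1 ≤ val g (δ * (L : ℝ)) U := by
  have h := (mem_canon.mp hU).1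
  have hc : (U.card : ℝ) ≤ L := by exact_mod_cast h.1
  refine h.2.trans (val_mono hg (mul_nonneg hδ.le (by linarith)) ?_ U)
  have : (0 : ℝ) ≤ U.card := by positivity
  exact mul_le_mul_of_nonneg_left (by linarith) hδ.le

/-! ### Removing the weight of the empty set -/

lemma fracCost_nonneg_part {g : Finset X → ℝ} (hg : ∀ S, 0 ≤ g S) {p : ℝ} (hp : 0 ≤ p) :
    g ∅ ≤ fracCost g p := by
  unfold fracCost
  have h : g ∅ * p ^ (∅ : Finset X).card ≤ ∑ S : Finset X, g S * p ^ S.card :=
    Finset.single_le_sum (f := fun S : Finset X => g S * p ^ S.card)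
      (fun S _ => mul_nonneg (hg S) (pow_nonneg hp _)) (Finset.mem_univ ∅)
  simpa using h

/-- The normalized cover without the empty set. -/
noncomputable def noEmpty (g : Finset X → ℝ) (M : Finset X) : ℝ :=
  if M = ∅ then 0 else g M / (1 - g ∅)

lemma noEmpty_mul (g : Finset X → ℝ) (hne : 1 - g ∅ ≠ 0) (M : Finset X) :
    noEmpty g M * (1 - g ∅) = g M - (if M = ∅ then g ∅ else 0) := by
  unfold noEmpty
  split_ifs with h
  · subst h
    ring
  · field_simp
    ring

/-! ### Assembling -/

lemma two_mul_le_two_pow (n : ℕ) : 2 * n ≤ 2 ^ n := by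
  induction n with
  | zero => simp
  | succ n ih =>
    rcases Nat.eq_zero_or_pos n with rfl | h
    · simp
    · rw [pow_succ]
      omega

/-- The main implication. -/
theorem small_of_fracSmall (k ℓ : ℕ) (hℓ : ℓ ≤ tower k) (F : Set (Finset X))
    (hF : ∀ H ∈ F, ∃ S ∈ F, S ⊆ H ∧ S.card ≤ ℓ)
    (p : ℝ) (hp0 : 0 ≤ p) (hp1 : p ≤ 1) (hfrac : IsFracSmall F p) :
    IsSmall F (p / (4 * ((k : ℝ) + 4))) := by
  classical
  obtain ⟨g₀, ⟨hg01, hgF⟩, hcost⟩ := hfrac
  have hg₀ : ∀ S, 0 ≤ g₀ S := fun S => (hg01 S).1
  rcases hp0.eq_or_lt with hp | hp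
  · -- the case `p = 0`
    subst hp
    have hne : ∀ H ∈ F, H ≠ ∅ := by
      rintro H hH rfl
      have h1 := hgF ∅ hH
      have h2 := fracCost_nonneg_part hg₀ (p := 0) le_rfl
      simp only [Finset.powerset_empty, Finset.sum_singleton] at h1
      linarith
    let A : Finset (Finset X) := Finset.univ.filter (fun S => S ∈ F)
    refine ⟨A, fun H hH => ⟨H, Finset.mem_filter.mpr ⟨Finset.mem_univ _, hH⟩,
      Finset.Subset.refl _⟩, ?_⟩
    have : famCost A ((0 : ℝ) / (4 * ((k : ℝ) + 4))) = 0 := by
      unfold famCost
      apply Finset.sum_eq_zero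
      intro S hS
      have hSne : S ≠ ∅ := hne S (Finset.mem_filter.mp hS).2
      have hpos : S.card ≠ 0 := by
        simpa [Finset.card_eq_zero] using hSne
      simp [hpos]
    rw [this]
    norm_num
  · -- the main case
    set a : ℝ := g₀ ∅ with ha
    have ha0 : 0 ≤ a := hg₀ ∅
    have ha1 : a ≤ 1 / 2 := (fracCost_nonneg_part hg₀ hp0).trans hcost
    have h1a : 0 < 1 - a := by linarith
    set g : Finset X → ℝ := noEmpty g₀ with hgdef
    have hg : ∀ S, 0 ≤ g S := by
      intro S
      simp only [hgdef, noEmpty]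
      split_ifs
      · exact le_rfl
      · exact div_nonneg (hg₀ S) h1a.le
    have hmul : ∀ M, g M * (1 - a) = g₀ M - (if M = ∅ then a else 0) :=
      fun M => noEmpty_mul g₀ h1a.ne' M
    have hgempty : g ∅ = 0 := by simp [hgdef, noEmpty]
    -- `g` is a fractional cover of cost at most `1/2`
    have hgcov : ∀ H ∈ F, 1 ≤ ∑ S ∈ H.powerset, g S := by
      intro H hH
      have h1 : (∑ S ∈ H.powerset, g S) * (1 - a) = ∑ S ∈ H.powerset, g₀ S - a := by
        rw [Finset.sum_mul, Finset.sum_congr rfl (fun M _ => hmul M), Finset.sum_sub_distrib,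
          Finset.sum_ite_eq' H.powerset ∅ (fun _ => a)]
        simp
      have h2 := hgF H hH
      have h3 : (1 - a) ≤ (∑ S ∈ H.powerset, g S) * (1 - a) := by
        rw [h1]
        linarith
      by_contra hcon
      push Not at hcon
      nlinarith
    have hgcost : fracCost g p ≤ 1 / 2 := by
      have h1 : fracCost g p * (1 - a) = fracCost g₀ p - a := by
        unfold fracCost
        rw [Finset.sum_mul]
        have : ∀ M ∈ (Finset.univ : Finset (Finset X)), g M * p ^ M.card * (1 - a)
            = g₀ M * p ^ M.card - (if M = ∅ then a else 0) := by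
          intro M _
          have h := hmul M
          calc g M * p ^ M.card * (1 - a) = (g M * (1 - a)) * p ^ M.card := by ring
            _ = (g₀ M - (if M = ∅ then a else 0)) * p ^ M.card := by rw [h]
            _ = g₀ M * p ^ M.card - (if M = ∅ then a else 0) := by
                split_ifs with hM
                · subst hM
                  simp
                · simp
        rw [Finset.sum_congr rfl this, Finset.sum_sub_distrib,
          Finset.sum_ite_eq' Finset.univ ∅ (fun _ => a)]
        simp
      by_contra hcon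
      push Not at hcon
      nlinarith
    -- parameters
    set L : ℕ := tower k with hL
    have hL1 : 1 ≤ L := tower_pos k
    have hLpos : (0 : ℝ) < L := by exact_mod_cast hL1
    have hk4 : (0 : ℝ) < 4 * ((k : ℝ) + 4) := by positivity
    set γ : ℝ := p / (4 * ((k : ℝ) + 4)) with hγdef
    have hγ : 0 < γ := div_pos hp hk4
    set δ : ℝ := γ / L with hδdef
    have hδ : 0 < δ := div_pos hγ hLpos
    have hδL : δ * (L : ℝ) = γ := by
      rw [hδdef]
      field_simp
    -- the value of the empty set stays small
    have htop : γ + ((k + 3 : ℕ) : ℝ) * γ = p / 4 := by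
      rw [hγdef]
      push_cast
      field_simp
      ring
    have hV : val g (γ + ((k + 3 : ℕ) : ℝ) * γ) ∅ ≤ 1 / 8 := by
      rw [htop]
      have h1 : val g (p / 4) ∅ ≤ (1 / 4) * fracCost g p := by
        unfold val fracCost
        rw [Finset.mul_sum]
        apply Finset.sum_le_sum
        intro M _
        by_cases hM : M = ∅
        · subst hM
          simp [hgempty]
        · have hc : 1 ≤ M.card := Finset.card_pos.mpr (Finset.nonempty_iff_ne_empty.mpr hM)
          have hsd : M \ ∅ = M := Finset.sdiff_empty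
          rw [hsd]
          have hpow : (p / 4) ^ M.card ≤ (1 / 4) * p ^ M.card := by
            rw [div_pow]
            have h4 : (4 : ℝ) ≤ 4 ^ M.card := by
              calc (4 : ℝ) = 4 ^ 1 := by norm_num
                _ ≤ 4 ^ M.card := pow_le_pow_right₀ (by norm_num) hc
            have hpM : 0 ≤ p ^ M.card := pow_nonneg hp0 _
            rw [div_le_iff₀ (by positivity)]
            nlinarith
          calc g M * (p / 4) ^ M.card ≤ g M * ((1 / 4) * p ^ M.card) :=
                mul_le_mul_of_nonneg_left hpow (hg M)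
            _ = 1 / 4 * (g M * p ^ M.card) := by ring
      linarith
    -- the initial family
    set A₀ := canon g δ L with hA₀
    have hA₀val : ∀ S ∈ A₀, 1 ≤ val g γ S := by
      intro S hS
      have := canon_val hg hδ hS
      rwa [hδL] at this
    have hZ₀ : famCost A₀ γ ≤ ((tower (k + 2) : ℕ) : ℝ) := by
      have h1 := canon_cost hg hδ L
      rw [hδL] at h1
      have h2 : Real.exp (L : ℝ) ≤ (2 : ℝ) ^ (2 * L) := by
        have h3 : Real.exp 1 ≤ 4 := by
          have := Real.exp_one_lt_d9
          linarith
        calc Real.exp (L : ℝ) = (Real.exp 1) ^ L := by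
              rw [← Real.exp_nat_mul]
              simp
          _ ≤ 4 ^ L := pow_le_pow_left₀ (Real.exp_pos 1).le h3 _
          _ = (2 : ℝ) ^ (2 * L) := by
              rw [pow_mul]
              norm_num
      have h4 : 2 * L ≤ tower (k + 1) := by
        simp only [tower]
        exact two_mul_le_two_pow L
      have h5 : (2 : ℝ) ^ (2 * L) ≤ (2 : ℝ) ^ (tower (k + 1)) :=
        pow_le_pow_right₀ (by norm_num) h4
      have h6 : ((tower (k + 2) : ℕ) : ℝ) = (2 : ℝ) ^ (tower (k + 1)) := by
        simp [tower]
      rw [h6]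
      linarith
    obtain ⟨G, hGcov, hGcost⟩ := gens hg hγ (ε := 1 / 8) (by norm_num) (k + 3) γ A₀ hγ.le hV hA₀val
    have hfinal : famCost G γ ≤ 1 / 2 := by
      refine hGcost.trans ?_
      have := iterate_tower' (k + 2)
      exact ((step_mono (by norm_num)).iterate (k + 3) hZ₀).trans this
    refine ⟨G, ?_, hfinal⟩
    intro H hH
    obtain ⟨S, hSF, hSH, hScard⟩ := hF H hH
    have hS1 : 1 ≤ val g 0 S := (hgcov S hSF).trans (val_zero_ge hg S)
    obtain ⟨U, hU, hUS⟩ := canon_cover hg hδ (L := L) (hScard.trans hℓ) hS1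
    obtain ⟨T, hT, hTU⟩ := hGcov U hU
    exact ⟨T, hT, hTU.trans (hUS.trans hSH)⟩

/-- **Main theorem.** For all `k, ℓ` with `ℓ ≤ tower k`, every finite set `X` and every family `F` of
subsets of `X` in which every member contains a member with at most `ℓ` elements (for increasing `F`:
every minimal member has at most `ℓ` elements; always true for `ℓ = |X|`), every `p ∈ [0,1]` at which
`F` has a fractional cover of cost at most `1/2` gives `p / (4(k+4))`-smallness of `F`, and hence
`q_f(F) ≤ 4 (k+4) q(F)`. -/
theorem result (k ℓ : ℕ) (hℓ : ℓ ≤ tower k) (F : Set (Finset X))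
    (hF : ∀ H ∈ F, ∃ S ∈ F, S ⊆ H ∧ S.card ≤ ℓ) :
    (∀ p : ℝ, 0 ≤ p → p ≤ 1 → IsFracSmall F p → IsSmall F (p / (4 * ((k : ℝ) + 4)))) ∧
    qFrac F ≤ 4 * ((k : ℝ) + 4) * qInt F := by
  have hmain : ∀ p : ℝ, 0 ≤ p → p ≤ 1 → IsFracSmall F p → IsSmall F (p / (4 * ((k : ℝ) + 4))) :=
    fun p h0 h1 h => small_of_fracSmall k ℓ hℓ F hF p h0 h1 h
  refine ⟨hmain, ?_⟩
  set K : ℝ := 4 * ((k : ℝ) + 4) with hK
  have hk0 : (0 : ℝ) ≤ k := by positivity
  have hK1 : 1 ≤ K := by
    rw [hK]
    nlinarith
  have hKpos : 0 < K := by linarith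
  have hqInt : 0 ≤ qInt F := by
    apply Real.sSup_nonneg
    intro x hx
    exact hx.1.1
  have hbdd : BddAbove {p : ℝ | p ∈ Set.Icc (0 : ℝ) 1 ∧ IsSmall F p} :=
    ⟨1, fun x hx => hx.1.2⟩
  unfold qFrac
  by_cases hne : {p : ℝ | p ∈ Set.Icc (0 : ℝ) 1 ∧ IsFracSmall F p}.Nonempty
  · apply csSup_le hne
    rintro p ⟨⟨hp0, hp1⟩, hp⟩
    have hmem : p / K ∈ {p : ℝ | p ∈ Set.Icc (0 : ℝ) 1 ∧ IsSmall F p} := by
      refine ⟨⟨div_nonneg hp0 hKpos.le, ?_⟩, hmain p hp0 hp1 hp⟩
      rw [div_le_one hKpos]
      linarith
    have hle : p / K ≤ qInt F := le_csSup hbdd hmem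
    rw [div_le_iff₀ hKpos] at hle
    linarith
  · rw [Set.not_nonempty_iff_eq_empty] at hne
    rw [hne, Real.sSup_empty]
    positivity

end Vale.Agent.Results.P034.B_logstar_ell
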